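import Vale.Agent.P223.R2.H84.Spec
import Vale.Agent.P223.X.All

/-! P223, block B6 (`SpecGood`): a good partition of unity on the universal covering of a closed
manifold with `Ric ≥ -g` (helper627). -/

namespace Vale.Agent.P223.R2.H627.Good

open scoped ContDiff ENNReal
open MeasureTheory Vale.Agent.P223.H Vale.Agent.P223.X

theorem main : H84.SpecGood := by
  intro n hn M _ _ _ _ _ _ c hc X Γ I _ _ _ _ _ _ _ _ B C hCB g μ hg hμ h δ hδ
  have hδ2 : (0 : ℝ) < δ / 2 := by positivity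
  have hG : MetX C (B.G g) := (hu.met n M X Γ I c B C hc hCB).1 g hg
  have hν : VolM C (B.G g) μ := hu.vol n M X Γ I c B C g μ hc hCB hg hμ
  have hdt : ∀ t i y a b, H.dtG (fun _ : ℝ => B.G g i) t y a b = 0 :=
    fun t i y a b => deriv_const _ _
  have hric : ∀ i (y w : E n), -(1 : ℝ) * ∑ a, ∑ b, w a * w b * B.G g i y a b ≤
      ∑ a, ∑ b, w a * w b * H.ric (B.G g i) y a b := by
    intro i y w
    obtain ⟨h1, h2, -, -⟩ := hu.ric n M I c B g hc hg
    obtain ⟨h3, h4⟩ := FinalM.coord hc B i y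
    have h5 := h (B.a i) _ h3 (B.D i y w)
    rw [h4, ← h1, ← h2] at h5
    exact h5
  have hB : ∀ t : ℝ, 0 ≤ t → ∫⁻ _ : M, ENNReal.ofReal
      (max 0 ((1 : ℝ) + 0 / ((n : ℝ) - 2)) ^ ((n : ℝ) / 2)) ∂μ ≤ μ Set.univ := by
    intro t _
    rw [zero_div, add_zero, max_eq_right zero_le_one, Real.one_rpow, ENNReal.ofReal_one,
      lintegral_const, one_mul]
  obtain ⟨t, μX, W, v, A, -, hμX, hW, hv, hle⟩ := hb.atx n M X Γ I C (fun _ => B.G g) hn
    ⟨fun i a b => (hG.smooth i a b).comp contDiff_snd, fun _ => hG⟩ (fun _ _ => 1) (fun _ _ => 0)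
    continuous_const continuous_const
    (fun t _ i y w => (hric i y w).trans (le_of_eq (Finset.sum_congr rfl fun a _ =>
      Finset.sum_congr rfl fun b _ => by rw [hdt, mul_zero, add_zero])))
    (fun t _ i y => by
      unfold H.trh
      simp only [hdt, mul_zero, Finset.sum_const_zero, le_refl])
    (fun _ => μ) (fun _ _ => hν) (μ Set.univ) hB (δ / 2) hδ2
  obtain ⟨P, hP, hPE⟩ := hb.tr n M X Γ I C (B.G g) μX μ W v A (by omega) hG hμX hν hW hv
    (δ / 2) hδ2
  refine ⟨P, hP, hPE.trans ((add_le_add hle le_rfl).trans (le_of_eq ?_))⟩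
  rw [add_assoc, ← ENNReal.ofReal_add hδ2.le hδ2.le, add_halves]
  rfl

end Vale.Agent.P223.R2.H627.Good
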