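import Vale.Agent.P223.R2.H84.SpecAm
import Vale.Agent.P223.X.Main
import Vale.Agent.P223.X.Form
import Vale.Agent.P223.X.FundE
import Vale.Agent.P223.X.FundRep
import Vale.Agent.P223.X.FundLoc
import Vale.Agent.P223.X.FundCase
import Vale.Agent.P223.X.FundN
import Vale.Agent.P223.X.FundAlt
import Vale.Agent.P223.X.FinX
import Vale.Agent.P223.MT.Final

/-! P223, row R5 (`SpecSvAm`): the simplicial volume is bounded by the weights of every partition
of unity on a covering whose group is a quotient of the fundamental group by an amenable subgroup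
(helper627). -/

namespace Vale.Agent.P223.R2.H627.SvAm

open scoped ContDiff
open MeasureTheory Vale.Agent.P223.H Vale.Agent.P223.X Vale.Agent.P223.X.Main

theorem main' (hForm : SpecFormX) (hCyc : SpecFormCyc) (hFund : SpecFundX)
    (hMT : MT.SpecMT) (hDual : MT.SpecDual) (hFin : SpecFin) (h1 : H84.SpecAvg)
    (h2 : H84.SpecPush) (h3 : H84.SpecPartC) : H84.SpecSvAm := by
  classical
  intro n M X W G Γ I _ _ _ _ _ _ _ _ _ _ _ _ C C' ρ p hρ hp hπ hψ hmean hn χ hχ hinf P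
  have : ContinuousConstSMul G X := ⟨C.cont⟩
  have hχ' : Part C' χ := h3 n M X W G Γ I C C' hψ χ hχ
  refine ENNReal.le_of_forall_pos_le_add fun δ hδ _ => ?_
  have hδ2 : (0 : ℝ) < (δ : ℝ) / 2 := by positivity
  set N : ℝ := ∑ᶠ l ∈ {l : Fin (n + 1) → Γ × Unit | (l 0).1 = 1}, |P.wt χ l| with hNdef
  obtain ⟨ι, _, P₀, q, S, hq, hinj, hvert, hfund⟩ := hFund n M X G I C χ hn hχ
  set T : Set (Fin (n + 1) → G × ι) := {l | (l 0).1 = 1} with hT
  set z₀ := ∑ᶠ l ∈ T, Finsupp.single (C.π.comp (S l)) (P₀.wt χ l) with hz₀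
  have hfin := hFin n M X G I C χ ι P₀
  have hfin' := hFin n M W Γ I C' χ Unit P
  obtain ⟨κ, _, P₁, P₁', hpush⟩ := h2 n M X W G Γ I C C' ρ p hρ hp hπ hψ hn χ hχ hχ'
  -- the chain as a finitely supported function
  let a : (Fin (n + 1) → G × ι) →₀ ℝ := Finsupp.onFinset hfin.toFinset
    (fun l => if (l 0).1 = 1 then P₀.wt χ l else 0) (by
      intro l hl
      rw [Set.Finite.mem_toFinset]
      by_cases h : (l 0).1 = 1
      · rw [if_pos h] at hl; exact ⟨h, hl⟩
      · rw [if_neg h] at hl; exact absurd rfl hl)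
  have ha : ∀ l, a l = if (l 0).1 = 1 then P₀.wt χ l else 0 := fun l => rfl
  have ha1 : ∀ l ∈ T, P₀.wt χ l = a l := fun l hl => (if_pos hl).symm
  have ha0 : ∀ l, l ∉ T → a l = 0 := fun l hl => if_neg hl
  have haw : ∀ l ∈ a.support, P₀.wt χ l ≠ 0 := by
    intro l hl h
    rw [Finsupp.mem_support_iff, ha, h, ite_self] at hl
    exact hl rfl
  let a' : (Fin (n + 1) → Γ × Unit) →₀ ℝ := Finsupp.onFinset hfin'.toFinset
    (fun l => if (l 0).1 = 1 then P.wt χ l else 0) (by
      intro l hl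
      rw [Set.Finite.mem_toFinset]
      by_cases h : (l 0).1 = 1
      · rw [if_pos h] at hl; exact ⟨h, hl⟩
      · rw [if_neg h] at hl; exact absurd rfl hl)
  have ha1' : ∀ l ∈ {l : Fin (n + 1) → Γ × Unit | (l 0).1 = 1}, P.wt χ l = a' l :=
    fun l hl => (if_pos hl).symm
  have ha0' : ∀ l, l ∉ {l : Fin (n + 1) → Γ × Unit | (l 0).1 = 1} → a' l = 0 :=
    fun l hl => if_neg hl
  have hz : z₀ = a.sum fun l r => Finsupp.single (C.π.comp (S l)) r :=
    finsum_eq T _ a (fun l r => Finsupp.single (C.π.comp (S l)) r) ha0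
      (fun l => Finsupp.single_zero _) fun l hl => by rw [ha1 l hl]
  have hN' : N = a'.sum fun l r => |r| :=
    finsum_eq _ _ a' (fun _ r => |r|) ha0' (fun l => abs_zero) fun l hl => by rw [ha1' l hl]
  have key : ∀ c : Chain (n + 1) M →ₗ[ℝ] ℝ, (∀ σ, |c (Finsupp.single σ 1)| ≤ 1) →
      (∀ w, c (bd (n + 1) w) = 0) → |c z₀| ≤ N := by
    intro c hc1 hc
    obtain ⟨F, hF1, hFi, hFc, hF⟩ := hMT M X G C.π C.orb hinf n c hn hc1 hc
    obtain ⟨F', hF'1, hF'i, hF'c, β, hβi, hβ⟩ := h1 G Γ ρ n F hρ hmean hF1 hFi hFc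
    have hcyc : ∀ β : (Fin n → G × ι) → ℝ,
        (∀ (γ : G) l, β (fun i => (γ * (l i).1, (l i).2)) = β l) →
        (a.sum fun l r => r * ∑ i : Fin (n + 1), (-1 : ℝ) ^ (i : ℕ) * β (l ∘ i.succAbove)) = 0 :=
      fun β hβ => by
        rw [← hCyc n M X G I C χ hn hχ ι P₀ β hβ]
        exact (finsum_eq T _ a
          (fun l r => r * ∑ i : Fin (n + 1), (-1 : ℝ) ^ (i : ℕ) * β (l ∘ i.succAbove)) ha0
          (fun l => zero_mul _) fun l hl => by rw [ha1 l hl]).symm
    have h1 := hF ι q (fun i j ⟨γ, h⟩ => (hq i j γ h).1) a S (fun l hl => hinj l (haw l hl))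
      (fun l hl i => hvert l (haw l hl) i) (by rw [← hz]; exact hfund.1) hcyc
    rw [hz, h1]
    -- the bounded cocycle on `Γ`
    have e1 : (a.sum fun l r => r * F fun i => (l i).1) =
        a.sum fun l r => r * F' fun i => ρ (l i).1 := by
      have e2 := hcyc (fun l => β fun i => (l i).1) fun γ l => hβi γ fun i => (l i).1
      rw [Finsupp.sum] at e2
      rw [Finsupp.sum, Finsupp.sum, ← sub_eq_zero, ← Finset.sum_sub_distrib, ← e2]
      refine Finset.sum_congr rfl fun l _ => ?_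
      rw [← mul_sub, hβ fun i => (l i).1]
      rfl
    have hGi : ∀ (γ : G) (g : Fin (n + 1) → G),
        (fun g : Fin (n + 1) → G => F' fun i => ρ (g i)) (fun k => γ * g k) =
          (fun g : Fin (n + 1) → G => F' fun i => ρ (g i)) g := by
      intro γ g
      change F' (fun i => ρ (γ * g i)) = F' fun i => ρ (g i)
      simp only [map_mul]
      exact hF'i (ρ γ) fun i => ρ (g i)
    have hGc : ∀ g : Fin (n + 2) → G, ∑ k : Fin (n + 2), (-1 : ℝ) ^ (k : ℕ) *
        (fun g : Fin (n + 1) → G => F' fun i => ρ (g i)) (g ∘ k.succAbove) = 0 :=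
      fun g => hF'c fun i => ρ (g i)
    have h2 := hForm n M X G I C χ (fun g => F' fun i => ρ (g i)) hn hχ hGi hGc ι κ P₀ P₁
    have h2' := hForm n M W Γ I C' χ F' hn hχ' hF'i hF'c κ Unit P₁' P
    have h3 : (a.sum fun l r => r * F' fun i => ρ (l i).1) =
        ∑ᶠ l ∈ T, P₀.wt χ l * F' fun k => ρ (l k).1 :=
      (finsum_eq T _ a (fun l r => r * F' fun i => ρ (l i).1) ha0 (fun l => zero_mul _)
        fun l hl => by rw [ha1 l hl]).symm
    have h4 : (∑ᶠ l ∈ {l : Fin (n + 1) → Γ × Unit | (l 0).1 = 1},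
        P.wt χ l * F' fun k => (l k).1) = a'.sum fun l r => r * F' fun i => (l i).1 :=
      finsum_eq _ _ a' (fun l r => r * F' fun i => (l i).1) ha0' (fun l => zero_mul _)
        fun l hl => by rw [ha1' l hl]
    have h5 : (a.sum fun l r => r * F fun i => (l i).1) =
        a'.sum fun l r => r * F' fun i => (l i).1 :=
      e1.trans (h3.trans (h2.trans ((hpush F').trans (h2'.trans h4))))
    rw [h5, hN', Finsupp.sum, Finsupp.sum]
    refine (Finset.abs_sum_le_sum_abs _ _).trans (Finset.sum_le_sum fun l _ => ?_)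
    rw [abs_mul]
    exact mul_le_of_le_one_right (abs_nonneg _) (hF'1 _)
  obtain ⟨w, hw⟩ := hDual M n z₀ N key (δ / 2) hδ2
  have h1 : svX C ≤ ENNReal.ofReal (l1 (z₀ + bd (n + 1) w)) := iInf₂_le _ (isFund_add hfund w)
  calc svX C ≤ _ := h1
    _ ≤ ENNReal.ofReal (N + δ / 2) := ENNReal.ofReal_le_ofReal hw
    _ ≤ ENNReal.ofReal N + ENNReal.ofReal (δ / 2) := ENNReal.ofReal_add_le
    _ ≤ ENNReal.ofReal N + ENNReal.ofReal δ := by
      gcongr
      linarith
    _ = _ := by rw [ENNReal.ofReal_coe_nnreal]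

/-- Row R5. -/
theorem main (h1 : H84.SpecAvg) (h2 : H84.SpecPush) (h3 : H84.SpecPartC) : H84.SpecSvAm :=
  main' Form.main Form.mainA
    (FundE.main Fund.Rep.main (Fund.Loc.main Fund.Rep.wts (Fund.Case.main FundN.main)
      Fund.Rep.theta Fund.Alt.main)) MT.mt MT.dual FinX.main h1 h2 h3

end Vale.Agent.P223.R2.H627.SvAm
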